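import Mathlib
import Vale.Agent.Lib.P063.Defs
import Vale.Agent.Lib.P063.Main

namespace Vale.Agent.Results.P063.CliqueWidthLowerBound

open Vale.Agent.Lib.P063

/-- For every `r ≥ 2` and `0 < ε < 1/2` there are `c > 0` and `n₀` such that for every `n ≥ n₀`
some nontrivial increasing `r`-uniform hypergraph property on `n` vertices has threshold width
`p_{1-ε} - p_ε ≥ c (log n)^{-r/(r-1)}`. -/
theorem result : ∀ r : ℕ, 2 ≤ r → ∀ ε : ℝ, 0 < ε → ε < 1 / 2 →
    ∃ c : ℝ, 0 < c ∧ ∃ n₀ : ℕ, ∀ n : ℕ, n₀ ≤ n →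
      ∃ P : Finset (Finset (Edge n r)), IsNontrivialIncreasingProperty P ∧
        c * (Real.log n) ^ (-((r : ℝ) / ((r : ℝ) - 1)))
          ≤ threshold P (1 - ε) - threshold P ε :=
  fun r hr ε hε hε2 => clique_width r hr ε hε hε2

end Vale.Agent.Results.P063.CliqueWidthLowerBound
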