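import Mathlib
import Vale.Agent.Lib.P063.Explicit

namespace Vale.Agent.Results.P063.ExplicitWidthBounds

open Vale.Agent.Lib.P063

/-- (1) For every increasing family `P` of subsets of a finite set that contains the full set and
all of whose members contain a member with at most `M` elements, the threshold width satisfies
`p_{1-ε} - p_ε ≥ p_ε · log((1-ε)/ε) / M`.
(2) For `r ≥ 2`, `0 < ε < 1/2` and every `n` with `n ≥ 3`, `n ≥ 16 r²`, `n > 1/ε`, some nontrivial
increasing `r`-uniform hypergraph property on `n` vertices has threshold width at least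
`e^{-2r} (2r)^{-r} log((1-ε)/ε) (log n)^{-r/(r-1)}`. -/
theorem result :
    (∀ (E : Type) [Fintype E] (P : Finset (Finset E)) (M : ℕ) (ε : ℝ),
        (∀ H ∈ P, ∀ H' : Finset E, H ⊆ H' → H' ∈ P) → Finset.univ ∈ P → 1 ≤ M →
        (∀ H ∈ P, ∃ S ∈ P, S ⊆ H ∧ S.card ≤ M) → 0 < ε → ε < 1 / 2 →
        threshold P ε * (Real.log ((1 - ε) / ε) / M)
          ≤ threshold P (1 - ε) - threshold P ε) ∧
    (∀ r : ℕ, 2 ≤ r → ∀ ε : ℝ, 0 < ε → ε < 1 / 2 →
      ∀ n : ℕ, 3 ≤ n → 16 * r ^ 2 ≤ n → 1 / ε < (n : ℝ) →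
        ∃ P : Finset (Finset (Edge n r)), IsNontrivialIncreasingProperty P ∧
          Real.exp (-(2 * (r : ℝ))) * Real.log ((1 - ε) / ε) / (2 * (r : ℝ)) ^ r
              * (Real.log n) ^ (-((r : ℝ) / ((r : ℝ) - 1)))
            ≤ threshold P (1 - ε) - threshold P ε) :=
  ⟨fun _ _ P M ε hinc huniv hM1 hM hε hε2 =>
      width_ge_threshold_mul P hinc M hM1 hM huniv ε hε hε2,
    fun r hr ε hε hε2 n hn3 hn16 hnε => clique_width_explicit r hr ε hε hε2 n hn3 hn16 hnε⟩

end Vale.Agent.Results.P063.ExplicitWidthBounds
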